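import Vale.Agent.P224.R2.H204.ElD
import Vale.Agent.P224.R2.H662.RareF

/-!
The mean normal law with small corrections: the record of `CqR`, checked by the kernel.
-/

namespace Vale.Agent.P224.R2.H204

open MeasureTheory Matrix Finset Filter
open Vale.Agent.P224.R2.H728 Vale.Agent.P224.R2.H579 Vale.Agent.P224.R2.H590
open Vale.Agent.P224.R2.H470 Vale.Agent.P224.R2.H662 Vale.Agent.P224.R2.H679
open scoped RealInnerProductSpace

set_option linter.unusedSectionVars false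

/-- the share of the square -/
def gsQ (c : CqR) : ℚ := 1 - 3 * c.ka / (1 + 2 * c.ka)

/-- the number of the linear part -/
def BD (c : CqR) : ℚ :=
  3 / 2 * ((c.K / c.t) ^ c.K / (c.K + 1) ^ (c.K + 1)) ^ 2 / ((1 - c.be) * gsQ c)
    * ((4 * c.ka) ^ (c.K + 1) * dfQ (c.K + 1))

/-- the constant of the record -/
def KnD (c : CqR) : ℚ :=
  3 / 2 + 73 / 32 * c.ka + (1 / 4 + c.ka) * (c.R ^ 2 - 1) + c.t
    + (3 * (1 / 4 + c.ka) ^ 2 / (2 * (c.be * gsQ c)) * c.A + BD c) * (c.cf / c.nu ^ 3)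

/-- the kernel check -/
def okD (c : CqR) : Bool :=
  decide (0 < c.nu) && decide (c.nu ≤ 1 / 5) && decide (1 < c.R) && decide (0 ≤ c.lg)
  && decide (c.R ≤ tay c.lg) && decide (c.nu ≤ (c.R ^ 2 - 1 - 2 * c.lg) / 2)
  && decide (2 ≤ c.K) && decide (0 < c.t) && decide (0 < c.be) && decide (c.be < 1)
  && decide (0 ≤ c.f) && decide (KnD c ≤ c.kn)

section

variable {X : Type*} {E : Type*} [NormedAddCommGroup E] [InnerProductSpace ℝ E]
  [FiniteDimensional ℝ E] [TopologicalSpace X] [MeasurableSpace X] [CompactSpace X] [BorelSpace X]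
  {μ : Measure X} {m : ℕ} {p n : X → E} {ι : Type*} [Fintype ι] [DecidableEq ι]

/-- soundness of the record -/
theorem cd_of_ok {c : CqR} (hr : okD c = true) (h : OneP μ m p n) (hm : 0 < m)
    (b : OrthonormalBasis ι ℝ E) {j : ι → ℝ}
    (hT : T0Data μ m (cob b p) (cob b n))
    (hL : LSq μ (Matrix.diagonal j) (cob b p) (cob b n)) {ν L : ℝ} (hν0 : 0 < ν)
    (hν : ∀ a, m2 μ (cob b n) (cob b n) a a ≤ ν) (h1 : ν ≤ c.nu)
    (hc : ν ^ 3 ≤ c.cf * hh μ (Matrix.diagonal j) (cob b p) (cob b n))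
    (hL8 : ∀ a, L ≤ L8 m j a) :
    L * √(uu μ (cob b n)) ≤ c.kn * hh μ (Matrix.diagonal j) (cob b p) (cob b n) := by
  unfold okD at hr
  simp only [Bool.and_eq_true, decide_eq_true_eq] at hr
  obtain ⟨⟨⟨⟨⟨⟨⟨⟨⟨⟨⟨k1, k2⟩, k3⟩, k4⟩, k5⟩, k6⟩, k7⟩, k8⟩, k9⟩, k10⟩, k11⟩, k12⟩ := hr
  have q1 : (0 : ℝ) < c.nu := by exact_mod_cast k1
  have q2 : (c.nu : ℝ) ≤ 1 / 5 := by
    have := (Rat.cast_le (K := ℝ)).2 k2
    push_cast at this
    exact this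
  have q3 : (1 : ℝ) < c.R := by exact_mod_cast k3
  have q3' : (0 : ℝ) < c.R := by linarith
  have k3' : 0 < c.R := lt_trans (by norm_num) k3
  have qlog : Real.log (c.R : ℝ) ≤ c.lg := log_le_of_tay k4 k3' k5
  have q6 : (c.nu : ℝ) ≤ ((c.R : ℝ) ^ 2 - 1 - 2 * c.lg) / 2 := by
    have := (Rat.cast_le (K := ℝ)).2 k6
    push_cast at this
    exact this
  have q8 : (0 : ℝ) < c.t := by exact_mod_cast k8
  have q9 : (0 : ℝ) < c.be := by exact_mod_cast k9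
  have q10 : (c.be : ℝ) < 1 := by exact_mod_cast k10
  have q11 : (0 : ℝ) ≤ c.f := by exact_mod_cast k11
  have q12 : (KnD c : ℝ) ≤ c.kn := by exact_mod_cast k12
  have e1 : (c.ka : ℝ) = (c.nu : ℝ) / (1 - c.nu) := by
    unfold CqR.ka
    push_cast
    rfl
  have e2 : (gsQ c : ℝ) = gs ((c.nu : ℝ) / (1 - c.nu)) := by
    unfold gsQ gs
    push_cast
    rw [e1]
  have e3 : (c.f : ℝ) = 2 - ((c.R : ℝ) ^ 2 - 1) / 2 + ((c.R : ℝ) ^ 2 - 1 - 2 * c.lg) / (2 * c.nu)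
      - c.n := by
    unfold CqR.f
    push_cast
    rfl
  have e4 : (c.A : ℝ) = 16 * ((c.nu : ℝ) / (1 - c.nu)) ^ 2 / (1 - 1 / (c.R : ℝ) ^ 2) ^ 2
      * ((500 / 1359) ^ c.n / (1 + (c.f : ℝ) + (c.f : ℝ) ^ 2 / 2)) := by
    unfold CqR.A
    push_cast
    rw [e1]
  have e5 : (BD c : ℝ) = cR c.K c.t / ((1 - c.be) * gs ((c.nu : ℝ) / (1 - c.nu)))
      * ((4 * ((c.nu : ℝ) / (1 - c.nu))) ^ (c.K + 1) * df (c.K + 1)) := by
    unfold BD cR
    push_cast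
    rw [e1, dfQ_cast, e2]
  have e6 : (KnD c : ℝ) = 3 / 2 + 73 / 32 * ((c.nu : ℝ) / (1 - c.nu))
      + (1 / 4 + (c.nu : ℝ) / (1 - c.nu)) * ((c.R : ℝ) ^ 2 - 1)
      + c.t + (3 * (1 / 4 + (c.nu : ℝ) / (1 - c.nu)) ^ 2
        / (2 * (c.be * gs ((c.nu : ℝ) / (1 - c.nu)))) * c.A + BD c)
        * (c.cf / (c.nu : ℝ) ^ 3) := by
    unfold KnD
    push_cast
    rw [e1, e2]
  have hh0 : 0 ≤ hh μ (Matrix.diagonal j) (cob b p) (cob b n) := by
    exact hT.hh_nonneg _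
  have w := cdg_closed h hm b hT hL (ν1 := c.nu) (R := c.R) (cf := c.cf) (t := c.t) (β := c.be)
    (A := c.A) (B := BD c) (L := L) (K := c.K) hν0 hν h1 q2 q3 ?_ hc k7 q8 q9 q10 ?_
    (le_of_eq e5.symm) hL8
  · refine w.trans (mul_le_mul_of_nonneg_right ?_ hh0)
    rw [← e6]
    exact q12
  · refine q6.trans ?_
    linarith
  · rw [e4]
    refine exp_fac_le c.n (f := c.f) q11 ?_ (by positivity) le_rfl
    rw [e3]
    have h2 : ((c.R : ℝ) ^ 2 - 1 - 2 * c.lg) / (2 * c.nu)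
        ≤ ((c.R : ℝ) ^ 2 - 1 - 2 * Real.log c.R) / (2 * c.nu) :=
      div_le_div_of_nonneg_right (by linarith) (by positivity)
    linarith

end

/-- sample records -/
def cdSample : List CqR :=
  [⟨1/100, 24, 7/5, 673/2000, 107/100, 11/50, 361/125, 15, 15⟩,
   ⟨1/25, 24, 7/4, 5597/10000, 959/500, 3/10, 2113/500, 12, 12⟩,
   ⟨2/25, 24, 407/200, 3553/5000, 649/250, 2/5, 2773/500, 11, 11⟩,
   ⟨11/100, 24, 111/50, 7977/10000, 1497/500, 11/25, 6509/1000, 10, 10⟩,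
   ⟨1/100, 1/900, 49/40, 203/1000, 31/50, 11/50, 1169/500, 6, 6⟩,
   ⟨1/25, 16/225, 38/25, 1047/2500, 337/250, 13/50, 3473/1000, 6, 7⟩,
   ⟨2/25, 128/225, 181/100, 2967/5000, 257/125, 9/25, 4749/1000, 7, 7⟩,
   ⟨11/100, 1331/900, 403/200, 438/625, 627/250, 2/5, 5729/1000, 7, 8⟩,
   ⟨1/100, 1/1600, 243/200, 487/2500, 29/50, 1/5, 287/125, 5, 6⟩,
   ⟨1/25, 1/25, 149/100, 997/2500, 129/100, 7/25, 847/250, 6, 6⟩,
   ⟨2/25, 8/25, 71/40, 5739/10000, 39/20, 17/50, 2307/500, 6, 7⟩,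
   ⟨11/100, 1331/1600, 393/200, 1689/2500, 302/125, 21/50, 5559/1000, 7, 7⟩]

lemma cdSample_ok : ∀ c ∈ cdSample, okD c = true := by decide +kernel

end Vale.Agent.P224.R2.H204
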