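import Vale.Agent.P224.R2.H204.Ptw2
import Vale.Agent.P224.R2.H679.CqR

/-!
The mean normal law with the small corrections of `ptwD`, closed form and record.
-/

namespace Vale.Agent.P224.R2.H204

open MeasureTheory Matrix Finset Filter
open Vale.Agent.P224.R2.H728 Vale.Agent.P224.R2.H579 Vale.Agent.P224.R2.H590
open Vale.Agent.P224.R2.H679

set_option linter.unusedSectionVars false

noncomputable section

section law

variable {ι Ω : Type*} [Fintype ι] [DecidableEq ι] [MeasurableSpace Ω] {μ : Measure Ω}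
  {m : ℝ} {x N : ι → Ω → ℝ} {j : ι → ℝ}

lemma wj_le {ρ : ℝ} {v : ι → ℝ} (hm : 0 < m) (hρm : ρ ^ 2 ≤ (m + 2) / 4) (hj : ∀ a, |j a| ≤ ρ)
    (hv : ∑ a, v a ^ 2 ≤ 1) : ∑ a, ((1 - j a ^ 2 / (m + 2)) * v a * j a) ^ 2 ≤ ρ ^ 2 := by
  calc ∑ a, ((1 - j a ^ 2 / (m + 2)) * v a * j a) ^ 2 ≤ ∑ a, ρ ^ 2 * v a ^ 2 := by
        refine Finset.sum_le_sum fun a _ => ?_
        have h1 := sq_le_of_abs hj a
        have h2 : 0 ≤ j a ^ 2 / (m + 2) := by positivity
        have h3 : j a ^ 2 / (m + 2) ≤ 1 := by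
          rw [div_le_one (by positivity)]
          linarith
        have h4 : (1 - j a ^ 2 / (m + 2)) ^ 2 ≤ 1 := pow_le_one₀ (by linarith) (by linarith)
        have e : ((1 - j a ^ 2 / (m + 2)) * v a * j a) ^ 2
            = (1 - j a ^ 2 / (m + 2)) ^ 2 * (j a ^ 2 * v a ^ 2) := by ring
        rw [e]
        have h5 : 0 ≤ j a ^ 2 * v a ^ 2 := by positivity
        have h6 := mul_le_mul_of_nonneg_right h4 h5
        have h7 := mul_le_mul_of_nonneg_right h1 (sq_nonneg (v a))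
        linarith
    _ ≤ ρ ^ 2 := by
        rw [← Finset.mul_sum]
        have := mul_le_mul_of_nonneg_left hv (sq_nonneg ρ)
        linarith

/-- **The mean normal law with small corrections.** -/
theorem el_cd (h : T0Data μ m x N) (hm : 0 < m) {L ρ d g Q E2 t β M : ℝ} {K : ℕ}
    (hL8 : ∀ a, L ≤ L8 m j a)
    (hρ : 0 < ρ) (hρm : ρ ^ 2 ≤ (m + 2) / 4) (hj : ∀ a, |j a| ≤ ρ)
    (hd : ρ ^ 2 / ((m + 2) / 2) ≤ d) (hg : 0 < g)
    (hg1 : g ≤ 1 - 3 / 2 * (ρ ^ 2 / ((m + 2) / 2 + ρ ^ 2)))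
    (hK : 1 ≤ K) (ht : 0 < t) (hβ : 0 < β) (hβ1 : β < 1) (hQ0 : 0 ≤ Q) (hM0 : 0 ≤ M)
    (hM : ∀ w : ι → ℝ, ∫ ω, (∑ a, w a * x a ω) ^ (2 * (K + 1)) ∂μ ≤ (∑ a, w a ^ 2) ^ (K + 1) * M)
    (hE : ∫ ω, max (qj j x ω - Q) 0 ^ 2 ∂μ ≤ E2) :
    L * √(uu μ N) ≤ (3 / 2 + 73 / 64 * d + (1 / 4 + d / 2) * Q + t)
        * hh μ (diagonal j) x N
      + 3 * (1 / 4 + d / 2) ^ 2 / (2 * (β * g)) * E2
      + cR K t / ((1 - β) * g) * ((4 * ρ ^ 2) ^ (K + 1) * M) := by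
  have := h.prob
  have bz := h.bzd j
  have hc := cR_nonneg K t
  have hβ2 : 0 < 1 - β := by linarith
  have hβg : 0 < β * g := mul_pos hβ hg
  have hβg2 : 0 < (1 - β) * g := mul_pos hβ2 hg
  have hhn : 0 ≤ hh μ (diagonal j) x N := h.hh_nonneg _
  have hd0 : 0 ≤ d := le_trans (by positivity) hd
  set θ : ℝ := 1 / 4 + d / 2 with hθd
  have hθ0 : 0 ≤ θ := by positivity
  have hE0 : 0 ≤ E2 := le_trans (integral_nonneg fun ω => sq_nonneg _) hE
  rcases (Real.sqrt_nonneg (uu μ N)).eq_or_lt with h0 | h0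
  · rw [← h0, mul_zero]
    positivity
  obtain ⟨v, hv, he⟩ := exists_dir h (√(uu μ N)) h0 rfl
  have hH0 : 0 < (m + 2) / 2 := by positivity
  set v1 : ι → ℝ := fun a => ((m + 2) / 2 + j a ^ 2) * v a / ((m + 2) / 2 + ρ ^ 2) with hv1
  have hv1' : ∑ a, v1 a ^ 2 ≤ 1 := short_vec hH0 hj hv.le
  set v2 : ι → ℝ := fun a => (1 - j a ^ 2 / (m + 2)) * v a * j a with hv2
  have hv2' : ∑ a, v2 a ^ 2 ≤ ρ ^ 2 := wj_le hm hρm hj hv.le
  set wp : ι → ℝ := fun a => -(v2 a) + ρ * v1 a with hwp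
  set wm : ι → ℝ := fun a => -(v2 a) - ρ * v1 a with hwm
  have hw : ∑ a, wp a ^ 2 + ∑ a, wm a ^ 2 ≤ 4 * ρ ^ 2 := by
    have e : ∑ a, wp a ^ 2 + ∑ a, wm a ^ 2
        = 2 * (∑ a, v2 a ^ 2) + 2 * ρ ^ 2 * ∑ a, v1 a ^ 2 := by
      rw [← Finset.sum_add_distrib, Finset.mul_sum, Finset.mul_sum, ← Finset.sum_add_distrib]
      refine Finset.sum_congr rfl fun a _ => ?_
      simp only [hwp, hwm]
      ring
    rw [e]
    have := mul_le_mul_of_nonneg_left hv1' (by positivity : 0 ≤ 2 * ρ ^ 2)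
    linarith
  have bw : ∀ w : ι → ℝ, BM fun ω => (∑ a, w a * x a ω) ^ (2 * (K + 1)) := fun w =>
    (BM.sum _ fun a _ => (h.bx a).const_mul _).pow _
  have bq : BM fun ω => max (qj j x ω - Q) 0 ^ 2 := by
    have b1 : BM fun ω => qj j x ω - Q := (bqj h j).sub (BM.const Q)
    have e : (fun ω => max (qj j x ω - Q) 0 ^ 2)
        = fun ω => (1 / 2 * ((qj j x ω - Q) + |qj j x ω - Q|)) ^ 2 := by
      funext ω
      congr 1
      rcases le_total (qj j x ω - Q) 0 with h9 | h9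
      · rw [max_eq_right h9, abs_of_nonpos h9]; ring
      · rw [max_eq_left h9, abs_of_nonneg h9]; ring
    rw [e]
    exact ((b1.add (H807.BM.abs b1)).const_mul _).pow 2
  have b0 : BM fun ω => (3 / 2 + 73 / 64 * d + θ * Q + t) * sz j x N ω := (bsz h j).const_mul _
  have b1 : BM fun ω => 3 * θ ^ 2 / (2 * (β * g)) * max (qj j x ω - Q) 0 ^ 2 := bq.const_mul _
  have b3 : BM fun ω => cR K t / ((1 - β) * g) * (∑ a, wp a * x a ω) ^ (2 * (K + 1)) :=
    (bw wp).const_mul _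
  have b4 : BM fun ω => cR K t / ((1 - β) * g) * (∑ a, wm a * x a ω) ^ (2 * (K + 1)) :=
    (bw wm).const_mul _
  have hp : ∀ ω, ∑ a, v a * G8 m j (fun b => x b ω) (fun b => N b ω) a
      ≤ (3 / 2 + 73 / 64 * d + θ * Q + t) * sz j x N ω
        + 3 * θ ^ 2 / (2 * (β * g)) * max (qj j x ω - Q) 0 ^ 2
        + cR K t / ((1 - β) * g) * (∑ a, wp a * x a ω) ^ (2 * (K + 1))
        + cR K t / ((1 - β) * g) * (∑ a, wm a * x a ω) ^ (2 * (K + 1)) := by
    intro ω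
    have k := ptwD (u := fun b => x b ω) (n := fun b => N b ω) hm hρ hρm hj (h.uN ω) hv.le
    have e2 : ∑ b, zz j (fun b => x b ω) (fun b => N b ω) b ^ 2 = sz j x N ω := by
      unfold sz
      exact Finset.sum_congr rfl fun b _ => by
        have e1 : zz j (fun b => x b ω) (fun b => N b ω) b = zd j x N b ω := rfl
        rw [e1, sq]
    have e4 : lx m ρ j v (fun b => x b ω) = ρ * |∑ a, v1 a * x a ω| := rfl
    have e5 : ∑ a, j a ^ 2 * x a ω ^ 2 - 1 = qj j x ω := rfl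
    have e6 : ∑ a, (1 - j a ^ 2 / (m + 2)) * v a * (j a * x a ω) = ∑ a, v2 a * x a ω :=
      Finset.sum_congr rfl fun a _ => by simp only [hv2]; ring
    rw [e2, e4, e5, e6] at k
    refine k.trans ?_
    have s0 := sz_nonneg j x N ω
    have hq1 : -1 ≤ qj j x ω := by
      have : 0 ≤ ∑ a, j a ^ 2 * x a ω ^ 2 := Finset.sum_nonneg fun a _ => by positivity
      have k1 : qj j x ω = ∑ a, j a ^ 2 * x a ω ^ 2 - 1 := rfl
      linarith
    set l : ℝ := -(∑ a, v2 a * x a ω) + ρ * |∑ a, v1 a * x a ω| with hl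
    have k5 := lin_sq' (l := l) s0 ht hβg2 hK
    have k8 := rad_sq (q := qj j x ω) (Q := Q) s0 hθ0 hβg
    have ep : ∑ a, wp a * x a ω = -(∑ a, v2 a * x a ω) + ρ * ∑ a, v1 a * x a ω := by
      rw [Finset.mul_sum, ← Finset.sum_neg_distrib, ← Finset.sum_add_distrib]
      refine Finset.sum_congr rfl fun a _ => ?_
      simp only [hwp]
      ring
    have em : ∑ a, wm a * x a ω = -(∑ a, v2 a * x a ω) - ρ * ∑ a, v1 a * x a ω := by
      rw [Finset.mul_sum, ← Finset.sum_neg_distrib, ← Finset.sum_sub_distrib]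
      refine Finset.sum_congr rfl fun a _ => ?_
      simp only [hwm]
      ring
    have k6 : (max l 0) ^ (2 * (K + 1)) ≤ (∑ a, wp a * x a ω) ^ (2 * (K + 1))
        + (∑ a, wm a * x a ω) ^ (2 * (K + 1)) := by
      have hpp : 0 ≤ (∑ a, wp a * x a ω) ^ (2 * (K + 1)) := (even_two_mul _).pow_nonneg _
      have hmm : 0 ≤ (∑ a, wm a * x a ω) ^ (2 * (K + 1)) := (even_two_mul _).pow_nonneg _
      rcases le_total l 0 with h9 | h9
      · rw [max_eq_right h9, zero_pow (by omega)]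
        positivity
      · rw [max_eq_left h9]
        rcases le_total 0 (∑ a, v1 a * x a ω) with h8 | h8
        · rw [hl, abs_of_nonneg h8, ← ep]
          linarith
        · rw [hl, abs_of_nonpos h8, mul_neg, ← sub_eq_add_neg, ← em]
          linarith
    have k7 := mul_le_mul_of_nonneg_left k6 (by positivity : 0 ≤ cR K t / ((1 - β) * g))
    have k9 : ρ ^ 2 / ((m + 2) / 2) * (73 / 64 + qj j x ω / 2) * sz j x N ω
        ≤ d * (73 / 64 + qj j x ω / 2) * sz j x N ω :=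
      mul_le_mul_of_nonneg_right (mul_le_mul_of_nonneg_right hd (by linarith)) s0
    have k10 : (3 / 2 + qj j x ω / 4
          - (1 / 6 - ρ ^ 2 / ((m + 2) / 2 + ρ ^ 2) / 4) * sz j x N ω - ∑ a, v2 a * x a ω
          + ρ ^ 2 / ((m + 2) / 2) * (73 / 64 + qj j x ω / 2)
          + ρ * |∑ a, v1 a * x a ω|) * sz j x N ω
        = (3 / 2) * sz j x N ω + qj j x ω / 4 * sz j x N ω
          + ρ ^ 2 / ((m + 2) / 2) * (73 / 64 + qj j x ω / 2) * sz j x N ω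
          + l * sz j x N ω
          - (1 - 3 / 2 * (ρ ^ 2 / ((m + 2) / 2 + ρ ^ 2))) * (sz j x N ω ^ 2 / 6) := by
      rw [hl]; ring
    rw [k10]
    have k11 : qj j x ω / 4 * sz j x N ω + d * (73 / 64 + qj j x ω / 2) * sz j x N ω
        = 73 / 64 * d * sz j x N ω + θ * qj j x ω * sz j x N ω := by rw [hθd]; ring
    have k12 : g * (sz j x N ω ^ 2 / 6)
        ≤ (1 - 3 / 2 * (ρ ^ 2 / ((m + 2) / 2 + ρ ^ 2))) * (sz j x N ω ^ 2 / 6) :=
      mul_le_mul_of_nonneg_right hg1 (by positivity)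
    have k13 : g * (sz j x N ω ^ 2 / 6)
        = (1 - β) * g * sz j x N ω ^ 2 / 6 + β * g * sz j x N ω ^ 2 / 6 := by ring
    linarith
  have h3 := law8_dir h hm j v hv he (Real.sqrt_nonneg _) hL8
    (((b0.add b1).add b3).add b4) hp
  rw [integral_add ((b0.add b1).add b3).int b4.int, integral_add (b0.add b1).int b3.int,
    integral_add b0.int b1.int] at h3
  simp only [integral_const_mul] at h3
  rw [← hh_sz h j] at h3
  have q1 := mul_le_mul_of_nonneg_left (hM wp) (by positivity : 0 ≤ cR K t / ((1 - β) * g))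
  have q2 := mul_le_mul_of_nonneg_left (hM wm) (by positivity : 0 ≤ cR K t / ((1 - β) * g))
  have q3 := mul_le_mul_of_nonneg_left hE (by positivity : 0 ≤ 3 * θ ^ 2 / (2 * (β * g)))
  have q4 := two_pow (Finset.sum_nonneg fun a _ => sq_nonneg (wp a))
    (Finset.sum_nonneg fun a _ => sq_nonneg (wm a)) hw K
  have q5 := mul_le_mul_of_nonneg_left (mul_le_mul_of_nonneg_right q4 hM0)
    (by positivity : 0 ≤ cR K t / ((1 - β) * g))
  have q6 : cR K t / ((1 - β) * g) * (((∑ a, wp a ^ 2) ^ (K + 1) + (∑ a, wm a ^ 2) ^ (K + 1)) * M)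
      = cR K t / ((1 - β) * g) * ((∑ a, wp a ^ 2) ^ (K + 1) * M)
        + cR K t / ((1 - β) * g) * ((∑ a, wm a ^ 2) ^ (K + 1) * M) := by ring
  rw [q6] at q5
  linarith

end law

section oneP

open Vale.Agent.P224.R2.H470 Vale.Agent.P224.R2.H662
open scoped RealInnerProductSpace

variable {X : Type*} {E : Type*} [NormedAddCommGroup E] [InnerProductSpace ℝ E]
  [FiniteDimensional ℝ E] [TopologicalSpace X] [MeasurableSpace X] [CompactSpace X] [BorelSpace X]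
  {μ : Measure X} {m : ℕ} {p n : X → E} {ι : Type*} [Fintype ι] [DecidableEq ι]

/-- the share of the square which is left -/
def gs (k : ℝ) : ℝ := 1 - 3 * k / (1 + 2 * k)

/-- **The mean normal law with small corrections, uniform in the dimension.** -/
theorem el_cd_uni [IsProbabilityMeasure μ] (h1P : OneP μ m p n) (b : OrthonormalBasis ι ℝ E)
    {j : ι → ℝ} (h : T0Data μ m (cob b p) (cob b n)) (hm : 0 < m) {L ρ kap Q E2 t β : ℝ} {K : ℕ}
    (hL8 : ∀ a, L ≤ L8 m j a) (hρ : 0 < ρ) (hj : ∀ a, |j a| ≤ ρ)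
    (hK : 1 ≤ K) (ht : 0 < t) (hβ : 0 < β) (hβ1 : β < 1) (hQ0 : 0 ≤ Q)
    (hkap : ρ ^ 2 ≤ kap * (m + 1)) (hkap4 : kap ≤ 1 / 4)
    (hE : ∫ ω, max (qj j (cob b p) ω - Q) 0 ^ 2 ∂μ ≤ E2) :
    L * √(uu μ (cob b n))
      ≤ (3 / 2 + 73 / 32 * kap + (1 / 4 + kap) * Q + t)
        * hh μ (diagonal j) (cob b p) (cob b n)
      + 3 * (1 / 4 + kap) ^ 2 / (2 * (β * gs kap)) * E2
      + cR K t / ((1 - β) * gs kap) * ((4 * kap) ^ (K + 1) * df (K + 1)) := by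
  have hm1 : (0 : ℝ) < m + 1 := by positivity
  have hm0 : (0 : ℝ) < m := by exact_mod_cast hm
  have hβ2 : 0 < 1 - β := by linarith
  have hk0 : 0 < kap := by
    have h1 : 0 < ρ ^ 2 := by positivity
    by_contra hc
    push Not at hc
    nlinarith
  have hρm : ρ ^ 2 ≤ ((m : ℝ) + 2) / 4 := by nlinarith
  have hρ2 : ρ ^ 2 ≤ 2 * kap * (((m : ℝ) + 2) / 2) := by nlinarith
  have hd : ρ ^ 2 / (((m : ℝ) + 2) / 2) ≤ 2 * kap := by
    rw [div_le_iff₀ (by positivity)]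
    exact hρ2
  have hg0 : 0 < gs kap := by
    unfold gs
    have : 3 * kap / (1 + 2 * kap) ≤ 1 / 2 := by
      rw [div_le_div_iff₀ (by positivity) (by norm_num)]
      linarith
    linarith
  have hg1 : gs kap ≤ 1 - 3 / 2 * (ρ ^ 2 / (((m : ℝ) + 2) / 2 + ρ ^ 2)) := by
    have h1 : ρ ^ 2 / (((m : ℝ) + 2) / 2 + ρ ^ 2) ≤ 2 * kap / (1 + 2 * kap) := by
      rw [div_le_div_iff₀ (by positivity) (by positivity)]
      nlinarith
    have h2 : 3 * kap / (1 + 2 * kap) = 3 / 2 * (2 * kap / (1 + 2 * kap)) := by ring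
    unfold gs
    rw [h2]
    linarith
  have h3 := el_cd h hm0 hL8 hρ hρm hj hd hg0 hg1 hK ht hβ hβ1 hQ0
    (div_nonneg (df_nonneg _) (by positivity)) (mom_gen h1P b K) hE
  have h4 : (4 * ρ ^ 2) ^ (K + 1) * (df (K + 1) / ((m : ℝ) + 1) ^ (K + 1))
      ≤ (4 * kap) ^ (K + 1) * df (K + 1) := by
    rw [mul_div_assoc', mul_comm _ (df (K + 1)), mul_div_assoc, ← div_pow, mul_comm]
    refine mul_le_mul_of_nonneg_right ?_ (df_nonneg _)
    refine pow_le_pow_left₀ (by positivity) ?_ _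
    rw [div_le_iff₀ hm1]
    linarith
  have hc := cR_nonneg K t
  have hx : 0 ≤ cR K t / ((1 - β) * gs kap) := by positivity
  have h5 := mul_le_mul_of_nonneg_left h4 hx
  have e1 : (3 / 2 + 73 / 64 * (2 * kap) + (1 / 4 + 2 * kap / 2) * Q + t)
      = 3 / 2 + 73 / 32 * kap + (1 / 4 + kap) * Q + t := by ring
  have e2 : (1 / 4 + 2 * kap / 2) = 1 / 4 + kap := by ring
  rw [e1, e2] at h3
  linarith

/-- **The closed form**, with any bound of the excess of the radius. -/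
theorem cd_core (h : OneP μ m p n) (hm : 0 < m) (b : OrthonormalBasis ι ℝ E) {j : ι → ℝ}
    (hT : T0Data μ m (cob b p) (cob b n))
    (hL : LSq μ (Matrix.diagonal j) (cob b p) (cob b n)) {ν ν1 Q cf t β A B L : ℝ} {K : ℕ}
    (hν0 : 0 < ν) (hν : ∀ a, m2 μ (cob b n) (cob b n) a a ≤ ν) (h1 : ν ≤ ν1) (hν1 : ν1 ≤ 1 / 5)
    (hQ : 0 ≤ Q) (hc : ν ^ 3 ≤ cf * hh μ (Matrix.diagonal j) (cob b p) (cob b n))
    (hK : 2 ≤ K) (ht : 0 < t) (hβ : 0 < β) (hβ1 : β < 1) (hA0 : 0 ≤ A)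
    (hA : ∫ ω, max (qj j (cob b p) ω - Q) 0 ^ 2 ∂μ
      ≤ A * (cf * hh μ (diagonal j) (cob b p) (cob b n) / ν1 ^ 3))
    (hB : cR K t / ((1 - β) * gs (ν1 / (1 - ν1)))
      * ((4 * (ν1 / (1 - ν1))) ^ (K + 1) * df (K + 1)) ≤ B)
    (hL8 : ∀ a, L ≤ L8 m j a) :
    L * √(uu μ (cob b n))
      ≤ (3 / 2 + 73 / 32 * (ν1 / (1 - ν1)) + (1 / 4 + ν1 / (1 - ν1)) * Q + t
          + (3 * (1 / 4 + ν1 / (1 - ν1)) ^ 2 / (2 * (β * gs (ν1 / (1 - ν1)))) * A + B)
            * (cf / ν1 ^ 3))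
        * hh μ (diagonal j) (cob b p) (cob b n) := by
  have := hT.prob
  have hν1' : 0 < ν1 := hν0.trans_le h1
  have hβ2 : 0 < 1 - β := by linarith
  have hq : ν < 1 := by linarith
  have h1ν : 0 < 1 - ν := by linarith
  have h1ν1 : 0 < 1 - ν1 := by linarith
  have hm0 : (0 : ℝ) ≤ m := Nat.cast_nonneg m
  have hm1 : (0 : ℝ) < (m : ℝ) + 1 := by positivity
  have hhn : 0 ≤ hh μ (diagonal j) (cob b p) (cob b n) := hT.hh_nonneg _
  obtain ⟨hj, -⟩ := jj_bounds b hT hL hq hν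
  set k0 : ℝ := ν / (1 - ν) with hk0
  set k1 : ℝ := ν1 / (1 - ν1) with hk1
  have hk0p : 0 < k0 := by positivity
  have hk1p : 0 < k1 := by positivity
  have hr1 : ν / ν1 ≤ 1 := by rw [div_le_one hν1']; exact h1
  have hr0 : 0 < ν / ν1 := by positivity
  have hk01 : k0 ≤ k1 * (ν / ν1) := by
    rw [hk0, hk1, div_mul_div_comm, div_le_div_iff₀ h1ν (by positivity)]
    have : ν * (ν1 * (1 - ν1)) ≤ ν * (ν1 * (1 - ν)) :=
      mul_le_mul_of_nonneg_left (mul_le_mul_of_nonneg_left (by linarith) hν1'.le) hν0.le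
    nlinarith
  have hk01' : k0 ≤ k1 := hk01.trans (by nlinarith)
  have hk1h : k1 ≤ 1 / 4 := by
    rw [hk1, div_le_iff₀ h1ν1]
    linarith
  have hk0h : k0 ≤ 1 / 4 := hk01'.trans hk1h
  have hρ2 : √(k0 * ((m : ℝ) + 1)) ^ 2 = k0 * (m + 1) := Real.sq_sqrt (by positivity)
  have hρ : 0 < √(k0 * ((m : ℝ) + 1)) := Real.sqrt_pos.2 (by positivity)
  have hja : ∀ a, |j a| ≤ √(k0 * ((m : ℝ) + 1)) := by
    intro a
    rw [← Real.sqrt_sq_eq_abs]
    exact Real.sqrt_le_sqrt (hj a)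
  have hcR := cR_nonneg K t
  have hdf := df_nonneg (K + 1)
  have hK1 : 1 ≤ K := by omega
  have main := el_cd_uni h b hT hm hL8 hρ hja hK1 ht hβ hβ1 hQ (kap := k0) hρ2.le hk0h hA
  have hX : (ν / ν1) ^ 3 ≤ cf * hh μ (diagonal j) (cob b p) (cob b n) / ν1 ^ 3 := by
    rw [div_pow]
    exact div_le_div_of_nonneg_right hc (by positivity)
  have hX0 : 0 ≤ cf * hh μ (diagonal j) (cob b p) (cob b n) / ν1 ^ 3 :=
    le_trans (by positivity) hX
  -- the share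
  have hgm : gs k1 ≤ gs k0 := by
    unfold gs
    have : 3 * k0 / (1 + 2 * k0) ≤ 3 * k1 / (1 + 2 * k1) := by
      rw [div_le_div_iff₀ (by positivity) (by positivity)]
      nlinarith
    linarith
  have hg1 : 0 < gs k1 := by
    unfold gs
    have : 3 * k1 / (1 + 2 * k1) ≤ 1 / 2 := by
      rw [div_le_div_iff₀ (by positivity) (by norm_num)]
      linarith
    linarith
  have hg0 : 0 < gs k0 := hg1.trans_le hgm
  have hB0 : 0 ≤ B := le_trans (by positivity) hB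
  have b1 : cR K t / ((1 - β) * gs k0) * ((4 * k0) ^ (K + 1) * df (K + 1))
      ≤ B * (cf * hh μ (diagonal j) (cob b p) (cob b n) / ν1 ^ 3) := by
    have a1 : (4 * k0) ^ (K + 1) ≤ (4 * k1) ^ (K + 1) * (ν / ν1) ^ 3 := by
      have a2 : (4 * k0) ^ (K + 1) ≤ (4 * (k1 * (ν / ν1))) ^ (K + 1) :=
        pow_le_pow_left₀ (by positivity) (by linarith) _
      refine a2.trans ?_
      rw [← mul_assoc, mul_pow]
      refine mul_le_mul_of_nonneg_left ?_ (by positivity)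
      exact pow_le_pow_of_le_one hr0.le hr1 (show 3 ≤ K + 1 by omega)
    have a0 : cR K t / ((1 - β) * gs k0) ≤ cR K t / ((1 - β) * gs k1) :=
      div_le_div_of_nonneg_left hcR (by positivity)
        (mul_le_mul_of_nonneg_left hgm hβ2.le)
    have a3 : cR K t / ((1 - β) * gs k0) * ((4 * k0) ^ (K + 1) * df (K + 1))
        ≤ cR K t / ((1 - β) * gs k1) * (((4 * k1) ^ (K + 1) * (ν / ν1) ^ 3) * df (K + 1)) :=
      mul_le_mul a0 (mul_le_mul_of_nonneg_right a1 hdf) (by positivity) (by positivity)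
    have a4 : cR K t / ((1 - β) * gs k1) * (((4 * k1) ^ (K + 1) * (ν / ν1) ^ 3) * df (K + 1))
        = cR K t / ((1 - β) * gs k1) * ((4 * k1) ^ (K + 1) * df (K + 1)) * (ν / ν1) ^ 3 := by ring
    rw [a4] at a3
    exact a3.trans (mul_le_mul hB hX (by positivity) hB0)
  set X := cf * hh μ (diagonal j) (cob b p) (cob b n) / ν1 ^ 3 with hXd
  set Hh := hh μ (diagonal j) (cob b p) (cob b n) with hHh
  have b2 : (3 / 2 + 73 / 32 * k0 + (1 / 4 + k0) * Q + t) * Hh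
      ≤ (3 / 2 + 73 / 32 * k1 + (1 / 4 + k1) * Q + t) * Hh := by
    refine mul_le_mul_of_nonneg_right ?_ hhn
    have := mul_le_mul_of_nonneg_right hk01' hQ
    linarith
  have b3 : 3 * (1 / 4 + k0) ^ 2 / (2 * (β * gs k0)) * (A * X)
      ≤ 3 * (1 / 4 + k1) ^ 2 / (2 * (β * gs k1)) * (A * X) := by
    refine mul_le_mul_of_nonneg_right ?_ (mul_nonneg hA0 hX0)
    have c1 : (1 / 4 + k0) ^ 2 ≤ (1 / 4 + k1) ^ 2 :=
      pow_le_pow_left₀ (by positivity) (by linarith) 2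
    refine div_le_div₀ (by positivity) (by linarith) (by positivity) ?_
    have := mul_le_mul_of_nonneg_left hgm hβ.le
    linarith
  have e6 : (3 / 2 + 73 / 32 * k1 + (1 / 4 + k1) * Q + t
      + (3 * (1 / 4 + k1) ^ 2 / (2 * (β * gs k1)) * A + B) * (cf / ν1 ^ 3)) * Hh
      = (3 / 2 + 73 / 32 * k1 + (1 / 4 + k1) * Q + t) * Hh
        + 3 * (1 / 4 + k1) ^ 2 / (2 * (β * gs k1)) * (A * X) + B * X := by
    rw [hXd]
    ring
  rw [e6]
  linarith

/-- **The closed form, Chernoff version.** -/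
theorem cdg_closed (h : OneP μ m p n) (hm : 0 < m) (b : OrthonormalBasis ι ℝ E) {j : ι → ℝ}
    (hT : T0Data μ m (cob b p) (cob b n))
    (hL : LSq μ (Matrix.diagonal j) (cob b p) (cob b n)) {ν ν1 R cf t β A B L : ℝ} {K : ℕ}
    (hν0 : 0 < ν) (hν : ∀ a, m2 μ (cob b n) (cob b n) a a ≤ ν) (h1 : ν ≤ ν1) (hν1 : ν1 ≤ 1 / 5)
    (hR : 1 < R) (hg : ν1 ≤ (R ^ 2 - 1 - 2 * Real.log R) / 2)
    (hc : ν ^ 3 ≤ cf * hh μ (Matrix.diagonal j) (cob b p) (cob b n))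
    (hK : 2 ≤ K) (ht : 0 < t) (hβ : 0 < β) (hβ1 : β < 1)
    (hA : 16 * (ν1 / (1 - ν1)) ^ 2 / (1 - 1 / R ^ 2) ^ 2
      * Real.exp (-2 + (R ^ 2 - 1) / 2 - (R ^ 2 - 1 - 2 * Real.log R) / (2 * ν1)) ≤ A)
    (hB : cR K t / ((1 - β) * gs (ν1 / (1 - ν1)))
      * ((4 * (ν1 / (1 - ν1))) ^ (K + 1) * df (K + 1)) ≤ B)
    (hL8 : ∀ a, L ≤ L8 m j a) :
    L * √(uu μ (cob b n))
      ≤ (3 / 2 + 73 / 32 * (ν1 / (1 - ν1)) + (1 / 4 + ν1 / (1 - ν1)) * (R ^ 2 - 1) + t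
          + (3 * (1 / 4 + ν1 / (1 - ν1)) ^ 2 / (2 * (β * gs (ν1 / (1 - ν1)))) * A + B)
            * (cf / ν1 ^ 3))
        * hh μ (diagonal j) (cob b p) (cob b n) := by
  obtain ⟨hA0, q3⟩ := q4_le h b hT hL hν0 hν h1 (by linarith) hR hg hc hA
  exact cd_core h hm b hT hL hν0 hν h1 hν1 (by nlinarith) hc hK ht hβ hβ1 hA0 q3 hB hL8

end oneP

end

end Vale.Agent.P224.R2.H204
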