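import Vale.Agent.P224.R2.H679.ElCS

/-!
The pointwise bound of the integrand of the mean normal law with smaller corrections.
-/

namespace Vale.Agent.P224.R2.H204

open MeasureTheory Matrix Finset Filter
open Vale.Agent.P224.R2.H728 Vale.Agent.P224.R2.H579 Vale.Agent.P224.R2.H590

set_option linter.unusedSectionVars false

noncomputable section

section pt

variable {ι : Type*} [Fintype ι] [DecidableEq ι] {m : ℝ} {j u n v : ι → ℝ}

/-- the splitting of the integrand with the shifted vector -/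
lemma G8_split2 (hm : 0 < m) (j u n v : ι → ℝ) :
    ∑ a, v a * G8 m j u n a
      = -(∑ a, v a * zz j u n a) * (∑ b, zz j u n b ^ 2)
        - 3 * (∑ a, v a * zz j u n a)
          * (∑ b, (1 - 2 / 3 * (j b ^ 2 / ((m + 2) / 2 + j b ^ 2))) * (j b * u b) * zz j u n b)
        - (∑ a, j a ^ 2 / ((m + 2) / 2) * v a * zz j u n a)
          * (∑ b, (m + 2) / 2 / ((m + 2) / 2 + j b ^ 2) * (j b * u b) * zz j u n b)
        - (∑ a, j a * v a * zz j u n a)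
          * (∑ b, j b ^ 2 / ((m + 2) / 2 + j b ^ 2) * u b * zz j u n b)
        + (∑ a, ((m + 2) / 2 + j a ^ 2) * v a * u a)
          * (∑ b, j b / ((m + 2) / 2 + j b ^ 2) * zz j u n b ^ 2)
        + 1 / 2 * (∑ a, (1 + j a ^ 2 / ((m + 2) / 2)) * v a * (j a * u a))
          * (∑ b, (1 - j b ^ 2 / ((m + 2) / 2 + j b ^ 2)) * zz j u n b ^ 2) := by
  rw [neg_mul, mul_assoc 3, mul_assoc (1 / 2)]
  simp only [Finset.sum_mul_sum]
  simp only [Finset.mul_sum]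
  rw [← Finset.sum_neg_distrib, ← Finset.sum_sub_distrib, ← Finset.sum_sub_distrib,
    ← Finset.sum_sub_distrib, ← Finset.sum_add_distrib, ← Finset.sum_add_distrib]
  refine Finset.sum_congr rfl fun a _ => ?_
  rw [← Finset.sum_neg_distrib, ← Finset.sum_sub_distrib, ← Finset.sum_sub_distrib,
    ← Finset.sum_sub_distrib, ← Finset.sum_add_distrib, ← Finset.sum_add_distrib]
  unfold G8
  have e5 : v a * (-(n a - j a * u a) * (∑ b, (n b - j b * u b) ^ 2)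
      + u a * (∑ b, ((m + 2) / 2 + j a ^ 2) * (j b + j a / 2) / ((m + 2) / 2 + j b ^ 2)
        * (n b - j b * u b) ^ 2)
      - (n a - j a * u a) * (∑ b, j b * (3 * ((m + 2) / 2) + j a ^ 2 + j a * j b + j b ^ 2)
        / ((m + 2) / 2 + j b ^ 2) * ((n b - j b * u b) * u b)))
    = ∑ b, v a * (-(n a - j a * u a) * (n b - j b * u b) ^ 2
      + u a * (((m + 2) / 2 + j a ^ 2) * (j b + j a / 2) / ((m + 2) / 2 + j b ^ 2)
        * (n b - j b * u b) ^ 2)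
      - (n a - j a * u a) * (j b * (3 * ((m + 2) / 2) + j a ^ 2 + j a * j b + j b ^ 2)
        / ((m + 2) / 2 + j b ^ 2) * ((n b - j b * u b) * u b))) := by
    rw [← Finset.mul_sum, Finset.sum_sub_distrib, Finset.sum_add_distrib, ← Finset.mul_sum,
      ← Finset.mul_sum, ← Finset.mul_sum]
  rw [e5]
  refine Finset.sum_congr rfl fun b _ => ?_
  have h0 : (m + 2) / 2 + j b ^ 2 ≠ 0 := by positivity
  have h1 : (m + 2) ≠ 0 := by positivity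
  have h2 : m + 2 + 2 * j b ^ 2 ≠ 0 := by positivity
  unfold zz
  field_simp
  ring

lemma lin_sum (c d : ℝ) (w Y z : ι → ℝ) :
    ∑ a, w a * (c * Y a - d * z a) = c * (∑ a, w a * Y a) - d * ∑ a, w a * z a := by
  rw [Finset.mul_sum, Finset.mul_sum, ← Finset.sum_sub_distrib]
  exact Finset.sum_congr rfl fun a _ => by ring

lemma sq_sum (c d : ℝ) (Y z : ι → ℝ) :
    ∑ a, (c * Y a - d * z a) ^ 2
      = c ^ 2 * (∑ a, Y a ^ 2) - 2 * c * d * (∑ a, Y a * z a) + d ^ 2 * ∑ a, z a ^ 2 := by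
  rw [Finset.mul_sum, Finset.mul_sum, Finset.mul_sum, ← Finset.sum_sub_distrib,
    ← Finset.sum_add_distrib]
  exact Finset.sum_congr rfl fun a _ => by ring

/-- the norm bound of the main vector -/
lemma main_vec (Y z : ι → ℝ) (hv : ∑ a, v a ^ 2 ≤ 1) :
    -(∑ a, v a * z a) * (∑ b, z b ^ 2) - 3 * (∑ a, v a * z a) * (∑ b, Y b * z b)
        + 3 / 2 * (∑ b, z b ^ 2) * (∑ a, v a * Y a)
      ≤ (3 / 4 + 3 / 4 * (∑ a, Y a ^ 2) + (∑ b, Y b * z b) + (∑ b, z b ^ 2) / 3)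
        * (∑ b, z b ^ 2) := by
  set s := ∑ b, z b ^ 2 with hs
  set P := ∑ b, Y b * z b with hP
  have hs0 : 0 ≤ s := Finset.sum_nonneg fun a _ => sq_nonneg _
  have h2 := Finset.sum_mul_sq_le_sq_mul_sq Finset.univ v fun a =>
    3 / 2 * s * Y a - (3 * P + s) * z a
  have h1 : ∑ a, (3 / 2 * s * Y a - (3 * P + s) * z a) ^ 2
      = s ^ 2 * (9 / 4 * (∑ a, Y a ^ 2) + 3 * P + s) := by
    rw [sq_sum, ← hs, ← hP]
    ring
  have e2 : ∑ a, v a * (3 / 2 * s * Y a - (3 * P + s) * z a)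
      = 3 / 2 * s * (∑ a, v a * Y a) - (3 * P + s) * ∑ a, v a * z a := lin_sum _ _ v Y z
  rw [h1] at h2
  set R := 9 / 4 * (∑ a, Y a ^ 2) + 3 * P + s with hR
  have h3 : 0 ≤ s ^ 2 * R := by
    rw [← h1]
    exact Finset.sum_nonneg fun a _ => sq_nonneg _
  have h0 : 0 ≤ (3 / 4 + R / 3) * s := by
    rcases hs0.eq_or_lt with h | h
    · rw [← h, mul_zero]
    · have h9 : 0 ≤ R := by
        by_contra hc
        push Not at hc
        have : s ^ 2 * R < 0 := mul_neg_of_pos_of_neg (by positivity) hc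
        linarith
      exact mul_nonneg (by linarith) h.le
  have h4 : (∑ a, v a * (3 / 2 * s * Y a - (3 * P + s) * z a)) ^ 2
      ≤ ((3 / 4 + R / 3) * s) ^ 2 := by
    refine h2.trans ?_
    have k1 : (∑ a, v a ^ 2) * (s ^ 2 * R) ≤ s ^ 2 * R := by nlinarith
    refine k1.trans ?_
    rw [mul_pow, mul_comm]
    refine mul_le_mul_of_nonneg_right ?_ (sq_nonneg s)
    nlinarith [sq_nonneg (3 / 4 - R / 3)]
  have h5 := (abs_le.1 (abs_le_of_sq_le_sq h4 h0)).2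
  rw [e2] at h5
  have e3 : (3 / 4 + R / 3) * s
      = (3 / 4 + 3 / 4 * (∑ a, Y a ^ 2) + P + s / 3) * s := by rw [hR]; ring
  rw [← e3]
  refine le_trans (le_of_eq ?_) h5
  ring

/-- the product of two functionals -/
lemma polar (f g z : ι → ℝ) {t : ℝ} (ht : 0 < t) :
    (∑ a, f a * z a) * (∑ a, g a * z a)
      ≤ 1 / 4 * (t * (∑ a, f a ^ 2) + (∑ a, g a ^ 2) / t + 2 * ∑ a, f a * g a)
        * ∑ a, z a ^ 2 := by
  have h1 := Finset.sum_mul_sq_le_sq_mul_sq Finset.univ (fun a => t * f a + g a) z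
  have e1 : ∑ a, (t * f a + g a) * z a = t * (∑ a, f a * z a) + ∑ a, g a * z a := by
    rw [Finset.mul_sum, ← Finset.sum_add_distrib]
    exact Finset.sum_congr rfl fun a _ => by ring
  have e2 : ∑ a, (t * f a + g a) ^ 2
      = t ^ 2 * (∑ a, f a ^ 2) + (∑ a, g a ^ 2) + 2 * t * ∑ a, f a * g a := by
    rw [Finset.mul_sum, Finset.mul_sum, ← Finset.sum_add_distrib, ← Finset.sum_add_distrib]
    exact Finset.sum_congr rfl fun a _ => by ring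
  rw [e1, e2] at h1
  set A := ∑ a, f a * z a
  set B := ∑ a, g a * z a
  set F := ∑ a, f a ^ 2
  set G := ∑ a, g a ^ 2
  set C := ∑ a, f a * g a
  set s := ∑ a, z a ^ 2
  have h2 : 4 * t * (A * B) ≤ (t ^ 2 * F + G + 2 * t * C) * s := by
    nlinarith [sq_nonneg (t * A - B)]
  have e3 : 1 / 4 * (t * F + G / t + 2 * C) * s
      = (t ^ 2 * F + G + 2 * t * C) * s / (4 * t) := by
    field_simp
  rw [e3, le_div_iff₀ (by positivity)]
  linarith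

/-- the weight `j^2 / (H + j^2)` -/
def wt (H : ℝ) (j : ι → ℝ) (a : ι) : ℝ := j a ^ 2 / (H + j a ^ 2)

lemma wt_nonneg {H : ℝ} (hH : 0 < H) (j : ι → ℝ) (a : ι) : 0 ≤ wt H j a := by
  unfold wt
  positivity

lemma sq_le_of_abs {ρ : ℝ} (hj : ∀ a, |j a| ≤ ρ) (a : ι) : j a ^ 2 ≤ ρ ^ 2 := by
  rw [← sq_abs]
  exact pow_le_pow_left₀ (abs_nonneg _) (hj a) 2

lemma wt_le {H ρ : ℝ} (hH : 0 < H) (hj : ∀ a, |j a| ≤ ρ) (a : ι) :
    wt H j a ≤ ρ ^ 2 / (H + ρ ^ 2) := by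
  have h1 := sq_le_of_abs hj a
  unfold wt
  rw [div_le_div_iff₀ (by positivity) (by positivity)]
  nlinarith

lemma wt_le' {H : ℝ} (hH : 0 < H) (j : ι → ℝ) (a : ι) : wt H j a ≤ j a ^ 2 / H := by
  unfold wt
  exact div_le_div_of_nonneg_left (sq_nonneg _) hH (by linarith [sq_nonneg (j a)])

section pieces

variable {H ρ d η ψ W : ℝ} {z : ι → ℝ}

lemma p1a (hH : 0 < H) (hj : ∀ a, |j a| ≤ ρ) (hη : η = ρ ^ 2 / (H + ρ ^ 2))
    (hψ : ψ = ∑ a, wt H j a * (j a * u a) ^ 2) :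
    ∑ a, ((1 - 2 / 3 * (j a ^ 2 / (H + j a ^ 2))) * (j a * u a)) ^ 2
      ≤ (∑ a, j a ^ 2 * u a ^ 2) - 4 / 3 * ψ + 4 / 9 * (η * ψ) := by
  rw [hψ, Finset.mul_sum, Finset.mul_sum, Finset.mul_sum, ← Finset.sum_sub_distrib,
    ← Finset.sum_add_distrib]
  refine Finset.sum_le_sum fun a _ => ?_
  have e : j a ^ 2 / (H + j a ^ 2) = wt H j a := rfl
  have w1 := wt_le hH hj a
  rw [← hη] at w1
  rw [e]
  have := mul_nonneg (mul_nonneg (wt_nonneg hH j a) (sub_nonneg.2 w1)) (sq_nonneg (j a * u a))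
  nlinarith

lemma p1b (hH : 0 < H) (hj : ∀ a, |j a| ≤ ρ) (hη : η = ρ ^ 2 / (H + ρ ^ 2))
    (hψ : ψ = ∑ a, wt H j a * (j a * u a) ^ 2) :
    ∑ b, (1 - 2 / 3 * (j b ^ 2 / (H + j b ^ 2))) * (j b * u b) * z b
      ≤ (∑ b, j b * u b * z b) + 4 / 9 * ψ + 1 / 4 * (η * ∑ b, z b ^ 2) := by
  rw [hψ, Finset.mul_sum, Finset.mul_sum, Finset.mul_sum, ← Finset.sum_add_distrib,
    ← Finset.sum_add_distrib]
  refine Finset.sum_le_sum fun a _ => ?_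
  have e : j a ^ 2 / (H + j a ^ 2) = wt H j a := rfl
  have w1 := wt_le hH hj a
  rw [← hη] at w1
  rw [e]
  have h1 := mul_nonneg (wt_nonneg hH j a) (sq_nonneg (2 / 3 * (j a * u a) + 1 / 2 * z a))
  have h2 := mul_nonneg (sub_nonneg.2 w1) (sq_nonneg (z a))
  nlinarith

lemma p1c (hW : W = ∑ a, v a * (wt H j a * (j a * u a))) :
    ∑ a, v a * ((1 - 2 / 3 * (j a ^ 2 / (H + j a ^ 2))) * (j a * u a))
      = (∑ a, v a * (j a * u a)) - 2 / 3 * W := by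
  rw [hW, Finset.mul_sum, ← Finset.sum_sub_distrib]
  refine Finset.sum_congr rfl fun a _ => ?_
  have e : j a ^ 2 / (H + j a ^ 2) = wt H j a := rfl
  rw [e]
  ring

lemma p2a (hH : 0 < H) (hj : ∀ a, |j a| ≤ ρ) (hd : d = ρ ^ 2 / H) (hv : ∑ a, v a ^ 2 ≤ 1) :
    ∑ a, (-(j a ^ 2 / H * v a)) ^ 2 ≤ d ^ 2 := by
  refine le_trans (Finset.sum_le_sum (g := fun a => d ^ 2 * v a ^ 2) fun a _ => ?_) ?_
  · have h1 : j a ^ 2 / H ≤ d := by
      rw [hd]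
      exact div_le_div_of_nonneg_right (sq_le_of_abs hj a) hH.le
    have h2 : 0 ≤ j a ^ 2 / H := by positivity
    have h3 : (j a ^ 2 / H) ^ 2 ≤ d ^ 2 := pow_le_pow_left₀ h2 h1 2
    have e : (-(j a ^ 2 / H * v a)) ^ 2 = (j a ^ 2 / H) ^ 2 * v a ^ 2 := by ring
    rw [e]
    exact mul_le_mul_of_nonneg_right h3 (sq_nonneg _)
  · rw [← Finset.mul_sum]
    have := mul_le_mul_of_nonneg_left hv (sq_nonneg d)
    linarith

lemma p2b (hH : 0 < H) :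
    ∑ b, (H / (H + j b ^ 2) * (j b * u b)) ^ 2 ≤ ∑ a, j a ^ 2 * u a ^ 2 := by
  refine Finset.sum_le_sum fun a _ => ?_
  have h1 : H / (H + j a ^ 2) ≤ 1 := by
    rw [div_le_one (by positivity)]
    linarith [sq_nonneg (j a)]
  have h2 : (H / (H + j a ^ 2)) ^ 2 ≤ 1 := pow_le_one₀ (by positivity) h1
  have e : (H / (H + j a ^ 2) * (j a * u a)) ^ 2
      = (H / (H + j a ^ 2)) ^ 2 * (j a ^ 2 * u a ^ 2) := by ring
  rw [e]
  have h3 : 0 ≤ j a ^ 2 * u a ^ 2 := by positivity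
  have := mul_le_mul_of_nonneg_right h2 h3
  linarith

lemma p2c (hH : 0 < H) (hW : W = ∑ a, v a * (wt H j a * (j a * u a))) :
    ∑ a, (-(j a ^ 2 / H * v a)) * (H / (H + j a ^ 2) * (j a * u a)) = -W := by
  rw [hW, ← Finset.sum_neg_distrib]
  refine Finset.sum_congr rfl fun a _ => ?_
  have h1 : H + j a ^ 2 ≠ 0 := by positivity
  unfold wt
  field_simp

/-- the second product -/
lemma p2 (hH : 0 < H) (hρ : 0 < ρ) (hj : ∀ a, |j a| ≤ ρ) (hd : d = ρ ^ 2 / H)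
    (hv : ∑ a, v a ^ 2 ≤ 1) (hW : W = ∑ a, v a * (wt H j a * (j a * u a))) :
    -((∑ a, j a ^ 2 / H * v a * z a) * ∑ b, H / (H + j b ^ 2) * (j b * u b) * z b)
      ≤ 1 / 4 * (d + d * (∑ a, j a ^ 2 * u a ^ 2) - 2 * W) * ∑ b, z b ^ 2 := by
  have hs0 : 0 ≤ ∑ b, z b ^ 2 := Finset.sum_nonneg fun a _ => sq_nonneg _
  have hd0 : 0 < d := by rw [hd]; positivity
  have t2 := polar (fun a => -(j a ^ 2 / H * v a)) (fun b => H / (H + j b ^ 2) * (j b * u b)) z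
    (t := 1 / d) (by positivity)
  have t2d : ∑ a, (-(j a ^ 2 / H * v a)) * z a = -∑ a, j a ^ 2 / H * v a * z a := by
    rw [← Finset.sum_neg_distrib]
    exact Finset.sum_congr rfl fun a _ => by ring
  rw [p2c hH hW, t2d, neg_mul] at t2
  refine t2.trans (mul_le_mul_of_nonneg_right ?_ hs0)
  have h1 : 1 / d * ∑ a, (-(j a ^ 2 / H * v a)) ^ 2 ≤ d := by
    have := mul_le_mul_of_nonneg_left (p2a hH hj hd hv) (by positivity : 0 ≤ 1 / d)
    have e3 : 1 / d * d ^ 2 = d := by field_simp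
    linarith
  have h2 : (∑ b, (H / (H + j b ^ 2) * (j b * u b)) ^ 2) / (1 / d)
      ≤ d * ∑ a, j a ^ 2 * u a ^ 2 := by
    rw [div_div_eq_mul_div, div_one, mul_comm]
    exact mul_le_mul_of_nonneg_left (p2b hH) hd0.le
  linarith

lemma p3a (hj : ∀ a, |j a| ≤ ρ) (hv : ∑ a, v a ^ 2 ≤ 1) : ∑ a, (-(j a * v a)) ^ 2 ≤ ρ ^ 2 := by
  refine le_trans (Finset.sum_le_sum (g := fun a => ρ ^ 2 * v a ^ 2) fun a _ => ?_) ?_
  · have e : (-(j a * v a)) ^ 2 = j a ^ 2 * v a ^ 2 := by ring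
    rw [e]
    exact mul_le_mul_of_nonneg_right (sq_le_of_abs hj a) (sq_nonneg _)
  · rw [← Finset.mul_sum]
    have := mul_le_mul_of_nonneg_left hv (sq_nonneg ρ)
    linarith

lemma p3b (hH : 0 < H) (hψ : ψ = ∑ a, wt H j a * (j a * u a) ^ 2) :
    ∑ b, (j b ^ 2 / (H + j b ^ 2) * u b) ^ 2 ≤ ψ / H := by
  rw [hψ, Finset.sum_div]
  refine Finset.sum_le_sum fun a _ => ?_
  have e : j a ^ 2 / (H + j a ^ 2) = wt H j a := rfl
  rw [e]
  have e2 : wt H j a * (j a * u a) ^ 2 / H = wt H j a * (j a ^ 2 / H) * u a ^ 2 := by ring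
  rw [e2, mul_pow]
  refine mul_le_mul_of_nonneg_right ?_ (sq_nonneg _)
  rw [sq]
  exact mul_le_mul_of_nonneg_left (wt_le' hH j a) (wt_nonneg hH j a)

lemma p3c (hW : W = ∑ a, v a * (wt H j a * (j a * u a))) :
    ∑ a, (-(j a * v a)) * (j a ^ 2 / (H + j a ^ 2) * u a) = -W := by
  rw [hW, ← Finset.sum_neg_distrib]
  refine Finset.sum_congr rfl fun a _ => ?_
  unfold wt
  ring

/-- the third product -/
lemma p3 (hH : 0 < H) (hj : ∀ a, |j a| ≤ ρ) (hd : d = ρ ^ 2 / H)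
    (hv : ∑ a, v a ^ 2 ≤ 1) (hW : W = ∑ a, v a * (wt H j a * (j a * u a)))
    (hψ : ψ = ∑ a, wt H j a * (j a * u a) ^ 2) :
    -((∑ a, j a * v a * z a) * ∑ b, j b ^ 2 / (H + j b ^ 2) * u b * z b)
      ≤ 1 / 4 * (9 / 16 * d + 16 / 9 * ψ - 2 * W) * ∑ b, z b ^ 2 := by
  have hs0 : 0 ≤ ∑ b, z b ^ 2 := Finset.sum_nonneg fun a _ => sq_nonneg _
  have t3 := polar (fun a => -(j a * v a)) (fun b => j b ^ 2 / (H + j b ^ 2) * u b) z
    (t := 9 / (16 * H)) (by positivity)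
  have t3d : ∑ a, (-(j a * v a)) * z a = -∑ a, j a * v a * z a := by
    rw [← Finset.sum_neg_distrib]
    exact Finset.sum_congr rfl fun a _ => by ring
  rw [p3c hW, t3d, neg_mul] at t3
  refine t3.trans (mul_le_mul_of_nonneg_right ?_ hs0)
  have h1 : 9 / (16 * H) * ∑ a, (-(j a * v a)) ^ 2 ≤ 9 / 16 * d := by
    have := mul_le_mul_of_nonneg_left (p3a hj hv) (by positivity : 0 ≤ 9 / (16 * H))
    have e3 : 9 / (16 * H) * ρ ^ 2 = 9 / 16 * d := by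
      rw [hd]
      field_simp
    linarith
  have h2 : (∑ b, (j b ^ 2 / (H + j b ^ 2) * u b) ^ 2) / (9 / (16 * H)) ≤ 16 / 9 * ψ := by
    have h3 := div_le_div_of_nonneg_right (p3b (u := u) hH hψ) (by positivity : 0 ≤ 9 / (16 * H))
    have e3 : ψ / H / (9 / (16 * H)) = 16 / 9 * ψ := by field_simp
    linarith
  linarith

lemma p4e (hH : 0 < H) (hj : ∀ a, |j a| ≤ ρ) (hd : d = ρ ^ 2 / H) (hv : ∑ a, v a ^ 2 ≤ 1) :
    -(∑ a, (1 + j a ^ 2 / H) * v a * (j a * u a))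
      ≤ (1 + d) * ((1 + ∑ a, j a ^ 2 * u a ^ 2) / 2) := by
  have hd0 : 0 ≤ d := by rw [hd]; positivity
  have h1 : ∀ a, -((1 + j a ^ 2 / H) * v a * (j a * u a))
      ≤ (1 + d) / 2 * v a ^ 2 + (1 + d) / 2 * (j a ^ 2 * u a ^ 2) := by
    intro a
    have h1 : j a ^ 2 / H ≤ d := by
      rw [hd]
      exact div_le_div_of_nonneg_right (sq_le_of_abs hj a) hH.le
    have h2 : 0 ≤ j a ^ 2 / H := by positivity
    have h3 := mul_nonneg (by linarith : 0 ≤ 1 + j a ^ 2 / H) (sq_nonneg (v a + j a * u a))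
    have h4 := mul_nonneg (sub_nonneg.2 h1) (sq_nonneg (v a))
    have h5 := mul_nonneg (sub_nonneg.2 h1) (sq_nonneg (j a * u a))
    nlinarith
  rw [← Finset.sum_neg_distrib]
  refine (Finset.sum_le_sum fun a _ => h1 a).trans ?_
  rw [Finset.sum_add_distrib, ← Finset.mul_sum, ← Finset.mul_sum]
  have := mul_le_mul_of_nonneg_left hv (by positivity : 0 ≤ (1 + d) / 2)
  linarith

/-- the last product -/
lemma p4 (hH : 0 < H) (hρ : 0 < ρ) (hj : ∀ a, |j a| ≤ ρ) (hd : d = ρ ^ 2 / H)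
    (hv : ∑ a, v a ^ 2 ≤ 1) :
    -((∑ a, (1 + j a ^ 2 / H) * v a * (j a * u a)) * ∑ b, wt H j b * z b ^ 2)
      ≤ d * ((1 + ∑ a, j a ^ 2 * u a ^ 2) / 2) * ∑ b, z b ^ 2 := by
  have hs0 : 0 ≤ ∑ b, z b ^ 2 := Finset.sum_nonneg fun a _ => sq_nonneg _
  have hr0 : 0 ≤ ∑ a, j a ^ 2 * u a ^ 2 := Finset.sum_nonneg fun a _ => by positivity
  have hd0 : 0 < d := by rw [hd]; positivity
  have hηd : ρ ^ 2 / (H + ρ ^ 2) * (1 + d) = d := by
    rw [hd]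
    field_simp
  have t4c : 0 ≤ ∑ b, wt H j b * z b ^ 2 :=
    Finset.sum_nonneg fun b _ => mul_nonneg (wt_nonneg hH j b) (sq_nonneg _)
  have t4d : ∑ b, wt H j b * z b ^ 2 ≤ ρ ^ 2 / (H + ρ ^ 2) * ∑ b, z b ^ 2 := by
    rw [Finset.mul_sum]
    exact Finset.sum_le_sum fun b _ => mul_le_mul_of_nonneg_right (wt_le hH hj b) (sq_nonneg _)
  have t4e := p4e (u := u) hH hj hd hv
  set Y := ∑ a, (1 + j a ^ 2 / H) * v a * (j a * u a)
  set r2 := ∑ a, j a ^ 2 * u a ^ 2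
  set s := ∑ b, z b ^ 2
  set Z3 := ∑ b, wt H j b * z b ^ 2
  rcases le_total 0 Y with h | h
  · have h1 : 0 ≤ Y * Z3 := mul_nonneg h t4c
    have h2 : 0 ≤ d * ((1 + r2) / 2) * s := by positivity
    linarith
  · have h1 : -(Y * Z3) = -Y * Z3 := by ring
    rw [h1]
    calc -Y * Z3 ≤ (1 + d) * ((1 + r2) / 2) * (ρ ^ 2 / (H + ρ ^ 2) * s) :=
          mul_le_mul t4e t4d t4c (by positivity)
      _ = (ρ ^ 2 / (H + ρ ^ 2) * (1 + d)) * ((1 + r2) / 2) * s := by ring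
      _ = d * ((1 + r2) / 2) * s := by rw [hηd]

end pieces

/-- the scalar assembly -/
lemma assem {s r2 zv yv yz X XX Z1 P D1 A1 J1 X1 Dy Z3 W ψ d η ρ YY : ℝ} (hs0 : 0 ≤ s)
    (hψ0 : 0 ≤ ψ) (hη3 : η ≤ 1 / 3)
    (t1 : -zv * s - 3 * zv * P + 3 / 2 * s * (yv - 2 / 3 * W)
      ≤ (3 / 4 + 3 / 4 * YY + P + s / 3) * s)
    (t1a : YY ≤ r2 - 4 / 3 * ψ + 4 / 9 * (η * ψ))
    (t1b : P ≤ yz + 4 / 9 * ψ + 1 / 4 * (η * s))
    (u2 : -(D1 * A1) ≤ 1 / 4 * (d + d * r2 - 2 * W) * s)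
    (u3 : -(J1 * X1) ≤ 1 / 4 * (9 / 16 * d + 16 / 9 * ψ - 2 * W) * s)
    (u4 : -((yv + Dy) * Z3) ≤ d * ((1 + r2) / 2) * s)
    (t5 : XX * Z1 ≤ ρ * (X * s)) (e2 : 2 * yz = -(r2 - 1) - s) :
    -zv * s - 3 * zv * P - D1 * A1 - J1 * X1 + XX * Z1 + 1 / 2 * (yv + Dy) * (s - Z3)
      ≤ (3 / 2 + (r2 - 1) / 4 - (1 / 6 - η / 4) * s - (yv - 1 / 2 * Dy)
        + d * (73 / 64 + (r2 - 1) / 2) + ρ * X) * s := by
  have u1 : -zv * s - 3 * zv * P + 3 / 2 * s * (yv - 2 / 3 * W)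
      ≤ (3 / 4 + 3 / 4 * (r2 - 4 / 3 * ψ + 4 / 9 * (η * ψ))
        + (yz + 4 / 9 * ψ + 1 / 4 * (η * s)) + s / 3) * s := by
    refine t1.trans (mul_le_mul_of_nonneg_right ?_ hs0)
    linarith
  have u6 : 0 ≤ (1 / 9 - η / 3) * ψ * s :=
    mul_nonneg (mul_nonneg (by linarith) hψ0) hs0
  have e4 : yz = (-(r2 - 1) - s) / 2 := by linarith
  rw [e4] at u1
  have g1 : -zv * s - 3 * zv * P - D1 * A1 - J1 * X1 + XX * Z1 + 1 / 2 * (yv + Dy) * (s - Z3)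
      = (-zv * s - 3 * zv * P + 3 / 2 * s * (yv - 2 / 3 * W)) - 3 / 2 * s * (yv - 2 / 3 * W)
        + -(D1 * A1) + -(J1 * X1) + XX * Z1 + 1 / 2 * (yv + Dy) * s + 1 / 2 * -((yv + Dy) * Z3) := by
    ring
  have g2 : (3 / 2 + (r2 - 1) / 4 - (1 / 6 - η / 4) * s - (yv - 1 / 2 * Dy)
        + d * (73 / 64 + (r2 - 1) / 2) + ρ * X) * s
      = (3 / 4 + 3 / 4 * (r2 - 4 / 3 * ψ + 4 / 9 * (η * ψ))
        + ((-(r2 - 1) - s) / 2 + 4 / 9 * ψ + 1 / 4 * (η * s)) + s / 3) * s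
        - 3 / 2 * s * (yv - 2 / 3 * W) + 1 / 4 * (d + d * r2 - 2 * W) * s
        + 1 / 4 * (9 / 16 * d + 16 / 9 * ψ - 2 * W) * s + ρ * (X * s)
        + 1 / 2 * (yv + Dy) * s + 1 / 2 * (d * ((1 + r2) / 2) * s) + (1 / 9 - η / 3) * ψ * s := by
    ring
  rw [g1, g2]
  linarith

/-- **the pointwise bound with small corrections** -/
theorem ptwD (hm : 0 < m) {ρ : ℝ} (hρ : 0 < ρ) (hρm : ρ ^ 2 ≤ (m + 2) / 4)
    (hj : ∀ a, |j a| ≤ ρ) (hn : ∑ a, n a ^ 2 = 1) (hv : ∑ a, v a ^ 2 ≤ 1) :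
    ∑ a, v a * G8 m j u n a
      ≤ (3 / 2 + (∑ a, j a ^ 2 * u a ^ 2 - 1) / 4
          - (1 / 6 - ρ ^ 2 / ((m + 2) / 2 + ρ ^ 2) / 4) * (∑ b, zz j u n b ^ 2)
          - ∑ a, (1 - j a ^ 2 / (m + 2)) * v a * (j a * u a)
          + ρ ^ 2 / ((m + 2) / 2) * (73 / 64 + (∑ a, j a ^ 2 * u a ^ 2 - 1) / 2)
          + lx m ρ j v u)
        * (∑ b, zz j u n b ^ 2) := by
  obtain ⟨H, hHm⟩ : ∃ H : ℝ, H = (m + 2) / 2 := ⟨_, rfl⟩
  have hH0 : 0 < H := by rw [hHm]; positivity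
  have hρH : ρ ^ 2 ≤ H / 2 := by rw [hHm]; linarith
  have k0 := G8_split2 hm j u n v
  have hlx : lx m ρ j v u = ρ * |∑ a, (H + j a ^ 2) * v a / (H + ρ ^ 2) * u a| := by
    rw [hHm]; rfl
  rw [← hHm] at k0
  rw [k0, hlx, ← hHm]
  have hc : ∑ a, (1 - j a ^ 2 / (m + 2)) * v a * (j a * u a)
      = (∑ a, v a * (j a * u a)) - 1 / 2 * ∑ a, j a ^ 2 / H * v a * (j a * u a) := by
    rw [Finset.mul_sum, ← Finset.sum_sub_distrib]
    refine Finset.sum_congr rfl fun a _ => ?_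
    rw [hHm]
    have : m + 2 ≠ 0 := by positivity
    field_simp
  have t4a : ∑ a, (1 + j a ^ 2 / H) * v a * (j a * u a)
      = (∑ a, v a * (j a * u a)) + ∑ a, j a ^ 2 / H * v a * (j a * u a) := by
    rw [← Finset.sum_add_distrib]
    exact Finset.sum_congr rfl fun a _ => by ring
  have t4b : ∑ b, (1 - j b ^ 2 / (H + j b ^ 2)) * zz j u n b ^ 2
      = (∑ b, zz j u n b ^ 2) - ∑ b, wt H j b * zz j u n b ^ 2 := by
    rw [← Finset.sum_sub_distrib]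
    refine Finset.sum_congr rfl fun b _ => ?_
    unfold wt
    ring
  have e2 : 2 * ∑ b, j b * u b * zz j u n b
      = -(∑ a, j a ^ 2 * u a ^ 2 - 1) - ∑ b, zz j u n b ^ 2 := by
    have : (1 : ℝ) = ∑ a, n a ^ 2 := hn.symm
    rw [this, Finset.mul_sum, ← Finset.sum_sub_distrib, ← Finset.sum_neg_distrib,
      ← Finset.sum_sub_distrib]
    refine Finset.sum_congr rfl fun a _ => ?_
    unfold zz
    ring
  obtain ⟨ψ, hψ⟩ : ∃ ψ : ℝ, ψ = ∑ a, wt H j a * (j a * u a) ^ 2 := ⟨_, rfl⟩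
  have hψ0 : 0 ≤ ψ := by
    rw [hψ]
    exact Finset.sum_nonneg fun a _ => mul_nonneg (wt_nonneg hH0 j a) (sq_nonneg _)
  obtain ⟨W, hW⟩ : ∃ W : ℝ, W = ∑ a, v a * (wt H j a * (j a * u a)) := ⟨_, rfl⟩
  have hs0 : 0 ≤ ∑ b, zz j u n b ^ 2 := Finset.sum_nonneg fun a _ => sq_nonneg _
  have hη3 : ρ ^ 2 / (H + ρ ^ 2) ≤ 1 / 3 := by
    rw [div_le_div_iff₀ (by positivity) (by norm_num)]
    linarith
  have t1 := main_vec (v := v) (fun b => (1 - 2 / 3 * (j b ^ 2 / (H + j b ^ 2))) * (j b * u b))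
    (zz j u n) hv
  rw [p1c hW] at t1
  have u4 := p4 (u := u) (z := zz j u n) hH0 hρ hj rfl hv
  rw [t4a] at u4
  rw [hc, t4a, t4b]
  exact assem hs0 hψ0 hη3 t1 (p1a hH0 hj rfl hψ) (p1b hH0 hj rfl hψ)
    (p2 (z := zz j u n) hH0 hρ hj rfl hv hW) (p3 (z := zz j u n) hH0 hj rfl hv hW hψ) u4
    (T2_le (v := v) (u := u) hρ (by linarith : ρ ^ 2 ≤ H) hj (zz j u n)) e2

end pt

end

end Vale.Agent.P224.R2.H204
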